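import Vale.Agent.P235.H957.Laws
import Vale.Agent.P235.H684.End
import Vale.Agent.P235.H265.Elim
import Vale.Agent.P235.H485.CoupChain

/-!
# P235, bounded treewidth (plan #9610), assembly, part 2: from the process to the random cuts, and
the final theorem
-/

namespace Vale.Agent.P235.H957

open Finset Vale.Agent.P235.H263

section path

variable {n k : ℕ} {A : Fin n → Finset (Fin n)} {hA : IsElim k A}

theorem path_adh {q : ℕ → Fin n} {N : ℕ} (hp : H684.Path (H684.toElim hA) q N) {i : ℕ}
    (hi : i < N) : (A (q (i + 1))).Nonempty := by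
  by_contra h
  have h1 : par A (q (i + 1)) = q i := hp.par i hi
  rw [par_of_empty h] at h1
  exact hp.ne i hi h1.symm

theorem path_lt {q : ℕ → Fin n} {N : ℕ} (hp : H684.Path (H684.toElim hA) q N) {i : ℕ}
    (hi : i < N) : (q i : ℕ) < (q (i + 1) : ℕ) := by
  have h1 : par A (q (i + 1)) = q i := hp.par i hi
  have h2 := hA.lt _ _ (par_mem (path_adh hp hi))
  rw [h1] at h2
  exact h2

theorem path_le {q : ℕ → Fin n} {N : ℕ} (hp : H684.Path (H684.toElim hA) q N) :
    ∀ i ≤ N, i ≤ (q i : ℕ) := by
  intro i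
  induction i with
  | zero => intro _; exact Nat.zero_le _
  | succ i ih =>
    intro hi
    have h1 := ih (by omega)
    have h2 := path_lt hp (i := i) (by omega)
    omega

end path

section loc

variable {n k : ℕ} {A : Fin n → Finset (Fin n)} {d : Fin n → Fin n → ℝ} {κ ε : ℝ}

/-- the chain of environments along a path of the tree -/
noncomputable def chainOf (hA : IsElim k A)
    (R : H265.Proc (Fin n) d (par A) (fun t => ¬ (A t).Nonempty) A κ ε)
    {q : ℕ → Fin n} {N : ℕ} (hp : H684.Path (H684.toElim hA) q N) :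
    H926.PathChain.{0, 0} (Fin n) N where
  Ω := fun _ => R.O
  fin := fun _ => R.fO
  P := fun i => R.P (q i)
  Q := fun i => R.Q (q (i + 1))
  g := fun i => R.g (q i)
  A := fun i => A (q i)
  B := fun i => insert (q i) (A (q i))
  z := q
  P_nonneg := fun i ω => R.P_nonneg _ _
  P_sum := fun i => R.P_sum _
  Q_nonneg := fun i ω ω' => R.Q_nonneg _ _ _
  Q_left := fun i hi ω => by
    rw [R.Q_left _ (not_not.mpr (path_adh hp hi))]
    have h1 : par A (q (i + 1)) = q i := hp.par i hi
    rw [h1]
  Q_right := fun i hi ω' => R.Q_right _ (not_not.mpr (path_adh hp hi)) ω'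
  A_sub := fun i hi => hp.A_sub hi
  B_succ := fun i _ => rfl
  z_notMem := fun i _ h => lt_irrefl _ (hA.lt _ _ h)
  A_ne := fun i hi => path_adh hp hi
  ce := fun i hi a ha ω' => by
    have h := R.ce (q (i + 1)) (not_not.mpr (path_adh hp hi)) a ha ω'
    have h1 : par A (q (i + 1)) = q i := hp.par i hi
    rw [h1] at h
    exact h
  ord := fun i hi a ha b hb ω' => by
    have h := fun o hQ => R.ord (q (i + 1)) (not_not.mpr (path_adh hp hi)) o ω' hQ a ha b hb
    have h' := fun o hQ => R.ord (q (i + 1)) (not_not.mpr (path_adh hp hi)) o ω' hQ b hb a ha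
    have h1 : par A (q (i + 1)) = q i := hp.par i hi
    rw [h1] at h h'
    rcases le_total (R.g (q (i + 1)) ω' a) (R.g (q (i + 1)) ω' b) with h2 | h2
    · exact Or.inl fun o ho => (h o ho.ne').mpr h2
    · exact Or.inr fun o ho => (h' o ho.ne').mpr h2

/-- the local data of the process -/
theorem local_of_proc (hA : IsElim k A) (hS : IsSep A d) (hκ : 0 < κ) (hε : ε ≤ 1 / 2) {kk : ℕ}
    (hkk : 0 < kk) (hk : k ≤ kk)
    (hη : kk * ε ≤ H926.PathChain.thSeq kk (kk - 1) / 4)
    (R : H265.Proc (Fin n) d (par A) (fun t => ¬ (A t).Nonempty) A κ ε) :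
    H684.Local hA d (min (κ / 2) 1) (H926.PathChain.C1 kk κ) := by
  classical
  obtain ⟨G, hG0, hG⟩ := R.exists_bound
  set K : ℝ := G * (2 * n + 1) with hKdef
  have hn0 : (0 : ℝ) ≤ n := Nat.cast_nonneg n
  have hGK : G ≤ K := by
    rw [hKdef]
    nlinarith
  have hK : 0 < K := lt_of_lt_of_le hG0 hGK
  have hgK : ∀ t o p, |R.g t o p| ≤ K := fun t o p => (hG t o p).trans hGK
  have hC1 : 0 < H926.PathChain.C1 kk κ := H926.PathChain.C1_pos hkk hκ
  have hdn : ∀ p q, 0 ≤ d p q := hS.nonneg
  refine ⟨fun t => lawOf K (R.P t) (R.g t), 2 * K, by positivity, fun t =>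
    lawOf_isLaw hK (R.P_nonneg t) (R.P_sum t) (R.g t), ?_, ?_, ?_⟩
  · -- consistency
    intro t ht h hh
    show H684.Ex (lawOf K (R.P t) (R.g t)) h =
      H684.Ex (lawOf K (R.P (par A t)) (R.g (par A t))) h
    have hne : (A t).Nonempty := by
      by_contra hcon
      exact ht (par_of_empty hcon)
    have hr : ¬ ¬ (A t).Nonempty := not_not.mpr hne
    rw [Ex_lawOf, Ex_lawOf]
    refine (mu_step (Q := R.Q t) (R.Q_nonneg t) (R.Q_left t hr) (R.Q_right t hr)
      (fun o' a ha => R.ce t hr a ha o') ?_ (fun o a _ => hgK _ _ _) hh).symm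
    intro o' a ha b hb
    rcases le_total (R.g t o' a) (R.g t o' b) with h2 | h2
    · exact Or.inl fun o ho => (R.ord t hr o o' ho.ne' a ha b hb).mpr h2
    · exact Or.inr fun o ho => (R.ord t hr o o' ho.ne' b hb a ha).mpr h2
  · -- the pairs in a bag
    intro t p hp p' hp'
    have hEx : 2 * K * H684.Ex (lawOf K (R.P t) (R.g t)) (H684.dif p p') =
        ∑ o, R.P t o * |R.g t o p - R.g t o p'| := by
      rw [Ex_lawOf]
      have h1 := mu_ne (R.P t) (g := R.g t) (p := p) (q := p') (fun o => hgK t o p)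
        (fun o => hgK t o p')
      have h2 : (H684.dif p p' : (Fin n → Bool) → ℝ) = fun X => if X p = X p' then 0 else 1 := rfl
      rw [h2, h1]
      field_simp
    show min (κ / 2) 1 * d p p' ≤ 2 * K * H684.Ex (lawOf K (R.P t) (R.g t)) (H684.dif p p') ∧
      2 * K * H684.Ex (lawOf K (R.P t) (R.g t)) (H684.dif p p') ≤ d p p'
    rw [hEx]
    constructor
    · have hac := R.ac t p hp p' hp'
      have h1 : ∀ o, κ * d p p' * (R.P t o - (if |R.g t o p - R.g t o p'| < κ * d p p'
          then R.P t o else 0)) ≤ R.P t o * |R.g t o p - R.g t o p'| := by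
        intro o
        have hP := R.P_nonneg t o
        split_ifs with h
        · rw [sub_self, mul_zero]
          exact mul_nonneg hP (abs_nonneg _)
        · rw [sub_zero, mul_comm]
          exact mul_le_mul_of_nonneg_left (not_lt.mp h) hP
      have h2 := sum_le_sum fun o (_ : o ∈ (univ : Finset R.O)) => h1 o
      rw [← mul_sum, sum_sub_distrib, R.P_sum t] at h2
      have h3 : κ * d p p' * (1 / 2) ≤ κ * d p p' * (1 - ∑ o, (if |R.g t o p - R.g t o p'| <
          κ * d p p' then R.P t o else 0)) :=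
        mul_le_mul_of_nonneg_left (by linarith) (mul_nonneg hκ.le (hdn _ _))
      have h4 : min (κ / 2) 1 * d p p' ≤ κ / 2 * d p p' :=
        mul_le_mul_of_nonneg_right (min_le_left _ _) (hdn _ _)
      linarith
    · have := R.mean hdn t p p'
      have h2 := hdn p p'
      linarith
  · -- the couplings
    intro q N hp r hr
    have hBne : (insert (q 0) (A (q 0))).Nonempty := ⟨q 0, mem_insert_self _ _⟩
    set rr : Fin n → ℝ := fun v => (insert (q 0) (A (q 0))).inf' hBne fun a => d v a with hrr
    have hNn : N ≤ n := by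
      have := path_le hp N le_rfl
      have h2 := (q N).2
      omega
    have hNn' : (N : ℝ) ≤ n := by exact_mod_cast hNn
    have hcardA : ∀ i < N, ((chainOf hA R hp).A (i + 1)).card ≤ kk := fun i _ =>
      (hA.card _).trans hk
    obtain ⟨Om', hf, P', X, h1, h2, h3, h4⟩ := H485.coupling_fresh (chainOf hA R hp) (G := G)
      (K := K) hK (fun i _ ω p _ => hG _ _ _) hG0.le (by rw [hKdef]; nlinarith) hkk hκ hη
      (r := rr) (d := d) hcardA
      (by
        intro v hv
        rw [hrr]
        refine (inf'_le _ (show v ∈ insert (q 0) (A (q 0)) from hv)).trans ?_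
        rw [hS.self])
      (by
        intro i _ a _
        show rr (q (i + 1)) ≤ rr a + d (q (i + 1)) a
        obtain ⟨b, hb, hb'⟩ := exists_mem_eq_inf' hBne fun b => d a b
        have h5 : rr a = d a b := hb'
        rw [h5]
        refine (inf'_le _ hb).trans ?_
        have := hS.tri (q (i + 1)) a b
        linarith)
      (fun i _ a _ => hdn _ _)
      (fun i _ a _ => by
        have h5 := R.mean hdn (q (i + 1)) (q (i + 1)) a
        have h6 := hdn (q (i + 1)) a
        show ∑ ω, R.P (q (i + 1)) ω * |R.g (q (i + 1)) ω (q (i + 1)) - R.g (q (i + 1)) ω a| ≤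
          d (q (i + 1)) a
        linarith)
      (fun i _ a ha => R.ac (q (i + 1)) (q (i + 1)) (mem_insert_self _ _) a
        (mem_insert_of_mem ha))
      (x := q N) (mem_insert_self _ _)
    refine ⟨rr (q N) / (2 * K * H926.PathChain.C1 kk κ), Om', hf, P', X, ⟨h1, ?_, h3, ?_⟩, ?_⟩
    · intro i hi h hh
      rw [Ex_lawOf]
      exact h2 i hi h fun X X' hX => hh X X' hX
    · intro f hf01 _
      have h5 := h4 fun Y => decide (f Y = 1)
      refine h5.trans (le_of_eq (sum_congr rfl fun ω _ => ?_))
      congr 1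
      rcases hf01 (X 0 ω) with h6 | h6 <;> rw [h6] <;> cases X N ω (q N) <;> simp
    · have h5 : H926.PathChain.C1 kk κ * (2 * K * (rr (q N) / (2 * K *
          H926.PathChain.C1 kk κ))) = rr (q N) := by
        field_simp
      rw [h5]
      exact le_inf' _ _ fun a ha => hr a ha

end loc

/-- random cuts for all metrics in elimination form -/
theorem exists_target (k : ℕ) : ∃ c : ℝ, 0 < c ∧ Target k c := by
  have hkk : 0 < k + 1 := Nat.succ_pos k
  have hth := H926.PathChain.thSeq_pos hkk (k + 1 - 1)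
  have hkk' : (0 : ℝ) < ((k + 1 : ℕ) : ℝ) := by exact_mod_cast hkk
  set ε : ℝ := min (1 / 2) (H926.PathChain.thSeq (k + 1) (k + 1 - 1) / 4 / ((k + 1 : ℕ) : ℝ))
    with hε
  have hε0 : 0 < ε := lt_min (by norm_num) (by positivity)
  obtain ⟨κ, hκ, H⟩ := H265.exists_proc_elim k hε0
  refine H684.target_of_local (κ := min (κ / 2) 1) (C1 := H926.PathChain.C1 (k + 1) κ)
    (lt_min (by positivity) one_pos) (min_le_right _ _) (H926.PathChain.C1_pos hkk hκ) ?_
  intro n A d _ hA hS
  obtain ⟨R⟩ := H n A d hA hS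
  refine local_of_proc hA hS hκ (min_le_left _ _) hkk (Nat.le_succ k) ?_ R
  have h1 : ε ≤ H926.PathChain.thSeq (k + 1) (k + 1 - 1) / 4 / ((k + 1 : ℕ) : ℝ) :=
    min_le_right _ _
  rw [le_div_iff₀ hkk'] at h1
  linarith

/-- **Connected graphs of treewidth at most `k` embed into `L₁` with distortion depending on `k`
only**, for all positive edge lengths. -/
theorem tw_bounded (k : ℕ) : ∃ C : ℝ, ∀ (V : Type) [Finite V] (G : SimpleGraph V),
    G.Connected → TreewidthLE G k → DistortionLE G C :=
  treewidth_of_targets exists_target k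

end Vale.Agent.P235.H957
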