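import Vale.Agent.P235.H485.Coup
import Vale.Agent.P235.H684.Marg

/-!
# P235, bounded treewidth (plan #9610), assembly, part 1: the laws of the level cuts as laws on
`Fin n → Bool`
-/

namespace Vale.Agent.P235.H957

open Finset

variable {n : ℕ} {Om Om' : Type} [Fintype Om] [Fintype Om']

/-- the law of the level cuts of the random function `g` (law `w`), with levels in `(-K, K]` -/
noncomputable def lawOf (K : ℝ) (w : Om → ℝ) (g : Om → Fin n → ℝ) (X : Fin n → Bool) : ℝ :=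
  H485.mu K w g fun Y => if Y = X then 1 else 0

theorem mu_sum {ι : Type} (s : Finset ι) (K : ℝ) (w : Om → ℝ) (g : Om → Fin n → ℝ)
    (F : ι → (Fin n → Bool) → ℝ) :
    H485.mu K w g (fun X => ∑ i ∈ s, F i X) = ∑ i ∈ s, H485.mu K w g (F i) := by
  unfold H485.mu H485.cutE
  rw [← sum_div, sum_comm]
  congr 1
  refine sum_congr rfl fun o _ => ?_
  rw [← mul_sum]
  congr 1
  exact H485.cutI_sum s K univ (g o) fun i S => F i (H485.toB S)

theorem mu_const_mul (K : ℝ) (w : Om → ℝ) (g : Om → Fin n → ℝ) (c : ℝ)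
    (F : (Fin n → Bool) → ℝ) :
    H485.mu K w g (fun X => c * F X) = c * H485.mu K w g F := by
  unfold H485.mu H485.cutE
  rw [← mul_div_assoc, mul_sum]
  congr 1
  refine sum_congr rfl fun o _ => ?_
  rw [H485.cutI_const_mul K univ (g o) c fun S => F (H485.toB S)]
  ring

theorem Ex_lawOf (K : ℝ) (w : Om → ℝ) (g : Om → Fin n → ℝ) (h : (Fin n → Bool) → ℝ) :
    H684.Ex (lawOf K w g) h = H485.mu K w g h := by
  unfold H684.Ex lawOf
  have h1 : ∀ X : Fin n → Bool, H485.mu K w g (fun Y => if Y = X then (1 : ℝ) else 0) * h X =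
      H485.mu K w g (fun Y => h X * if Y = X then (1 : ℝ) else 0) := by
    intro X
    rw [mu_const_mul, mul_comm]
  rw [sum_congr rfl fun X _ => h1 X, ← mu_sum]
  congr 1
  funext Y
  rw [Finset.sum_eq_single Y]
  · simp
  · intro X _ hX
    rw [if_neg (Ne.symm hX), mul_zero]
  · intro h2
    exact absurd (mem_univ Y) h2

theorem mu_nonneg {K : ℝ} (hK : 0 < K) {w : Om → ℝ} (hw : ∀ o, 0 ≤ w o) (g : Om → Fin n → ℝ)
    {h : (Fin n → Bool) → ℝ} (hh : ∀ X, 0 ≤ h X) : 0 ≤ H485.mu K w g h :=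
  H485.cutE_nonneg hK hw g univ fun _ => hh _

theorem mu_one {K : ℝ} (hK : 0 < K) {w : Om → ℝ} (hw1 : ∑ o, w o = 1) (g : Om → Fin n → ℝ) :
    H485.mu K w g (fun _ => 1) = 1 := by
  unfold H485.mu H485.cutE
  have h1 : ∀ o, w o * H485.cutI K univ (g o) (fun _ => (1 : ℝ)) = w o * (2 * K) := by
    intro o
    rw [H485.cutI_const, mul_one]
  rw [sum_congr rfl fun o _ => h1 o, ← sum_mul, hw1, one_mul]
  exact div_self (by positivity)

theorem lawOf_isLaw {K : ℝ} (hK : 0 < K) {w : Om → ℝ} (hw : ∀ o, 0 ≤ w o) (hw1 : ∑ o, w o = 1)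
    (g : Om → Fin n → ℝ) : H684.IsLaw (lawOf K w g) := by
  constructor
  · intro X
    refine mu_nonneg hK hw g fun Y => ?_
    split_ifs <;> norm_num
  · have h1 := Ex_lawOf K w g (fun _ => 1)
    rw [mu_one hK hw1] at h1
    unfold H684.Ex at h1
    simpa using h1

/-- consistency of the laws of the level cuts on an adhesion -/
theorem mu_step {K : ℝ} {w : Om → ℝ} {w' : Om' → ℝ} {Q : Om → Om' → ℝ}
    (hQ : ∀ o o', 0 ≤ Q o o') (hQl : ∀ o, ∑ o', Q o o' = w o) (hQr : ∀ o', ∑ o, Q o o' = w' o')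
    {g : Om → Fin n → ℝ} {g' : Om' → Fin n → ℝ} {A : Finset (Fin n)}
    (hce : ∀ o', ∀ a ∈ A, ∑ o, Q o o' * g o a = w' o' * g' o' a)
    (hord : ∀ o', ∀ a ∈ A, ∀ b ∈ A, (∀ o, 0 < Q o o' → g o a ≤ g o b) ∨
      (∀ o, 0 < Q o o' → g o b ≤ g o a))
    (hb : ∀ o, ∀ a ∈ A, |g o a| ≤ K) {h : (Fin n → Bool) → ℝ}
    (hh : H684.DepOn (A : Set (Fin n)) h) : H485.mu K w g h = H485.mu K w' g' h := by
  have hh' : ∀ X X' : Fin n → Bool, (∀ p ∈ A, X p = X' p) → h X = h X' := fun X X' hX => hh X X' hX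
  rw [H485.mu_dep K w g A hh', H485.mu_dep K w' g' A hh']
  exact H485.cutE_step hQ hQl hQr hce hord hb _

/-- the measure of the cuts separating two vertices -/
theorem mu_ne {K : ℝ} (w : Om → ℝ) {g : Om → Fin n → ℝ} {p q : Fin n}
    (hp : ∀ o, |g o p| ≤ K) (hq : ∀ o, |g o q| ≤ K) :
    H485.mu K w g (fun X => if X p = X q then 0 else 1) =
      (∑ o, w o * |g o p - g o q|) / (2 * K) := by
  unfold H485.mu H485.cutE
  congr 1
  refine sum_congr rfl fun o _ => ?_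
  congr 1
  rw [← H485.cutI_ne (mem_univ p) (mem_univ q) (hp o) (hq o)]
  congr 1
  funext S
  by_cases h1 : p ∈ S <;> by_cases h2 : q ∈ S <;> simp [H485.toB, h1, h2]

end Vale.Agent.P235.H957
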